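import Vale.Agent.Lib.P208.Defs

namespace Vale.Agent.Lib.P208

open Metric Set

theorem embedsWith_iff {E : Type*} [PseudoMetricSpace E] (X : Set E) (k : ℕ) (D : ℝ) :
    EmbedsWith X k D ↔ ∃ (f : E → EuclideanSpace ℝ (Fin k)) (a : ℝ), 0 < a ∧
      ∀ x ∈ X, ∀ y ∈ X, a * dist x y ≤ dist (f x) (f y) ∧ dist (f x) (f y) ≤ D * a * dist x y := by
  classical
  constructor
  · rintro ⟨f, a, ha, h⟩
    refine ⟨fun x => if hx : x ∈ X then f ⟨x, hx⟩ else 0, a, ha, ?_⟩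
    intro x hx y hy
    simp only [dif_pos hx, dif_pos hy]
    exact h ⟨x, hx⟩ ⟨y, hy⟩
  · rintro ⟨f, a, ha, h⟩
    exact ⟨fun x => f x, a, ha, fun x y => h x x.2 y y.2⟩

theorem embedsWith_empty {E : Type*} [PseudoMetricSpace E] (k : ℕ) (D : ℝ) :
    EmbedsWith (∅ : Set E) k D :=
  ⟨fun _ => 0, 1, one_pos, fun x => (x.2).elim⟩

theorem EmbedsWith.subset {E : Type*} [PseudoMetricSpace E] {X X' : Set E} {k : ℕ} {D : ℝ}
    (h : EmbedsWith X k D) (hX : X' ⊆ X) : EmbedsWith X' k D := by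
  rw [embedsWith_iff] at h ⊢
  obtain ⟨f, a, ha, hf⟩ := h
  exact ⟨f, a, ha, fun x hx y hy => hf x (hX hx) y (hX hy)⟩

theorem EmbedsWith.of_similar {E E' : Type*} [PseudoMetricSpace E] [PseudoMetricSpace E']
    {X : Set E} {X' : Set E'} {k : ℕ} {D : ℝ} (φ : E' → E) (s : ℝ) (hs : 0 < s)
    (hφ : ∀ x y, dist (φ x) (φ y) = s * dist x y) (hX : ∀ x ∈ X', φ x ∈ X)
    (h : EmbedsWith X k D) : EmbedsWith X' k D := by
  rw [embedsWith_iff] at h ⊢
  obtain ⟨f, a, ha, hf⟩ := h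
  refine ⟨fun x => f (φ x), a * s, mul_pos ha hs, ?_⟩
  intro x hx y hy
  have := hf (φ x) (hX x hx) (φ y) (hX y hy)
  rw [hφ] at this
  constructor
  · calc a * s * dist x y = a * (s * dist x y) := by ring
      _ ≤ _ := this.1
  · calc dist (f (φ x)) (f (φ y)) ≤ D * a * (s * dist x y) := this.2
      _ = D * (a * s) * dist x y := by ring

theorem EmbedsWith.mono {E : Type*} [PseudoMetricSpace E] {X : Set E} {k k' : ℕ} {D D' : ℝ}
    (h : EmbedsWith X k D) (hk : k ≤ k') (hD : D ≤ D') : EmbedsWith X k' D' := by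
  obtain ⟨f, a, ha, hf⟩ := h
  let b := EuclideanSpace.basisFun (Fin k) ℝ
  let b' := EuclideanSpace.basisFun (Fin k') ℝ
  let L : EuclideanSpace ℝ (Fin k) →ₗ[ℝ] EuclideanSpace ℝ (Fin k') :=
    b.toBasis.constr ℝ (fun i => b' (Fin.castLE hk i))
  have hb : Orthonormal ℝ (b.toBasis : Fin k → EuclideanSpace ℝ (Fin k)) := by
    rw [b.coe_toBasis]
    exact b.orthonormal
  have hL : Orthonormal ℝ (L ∘ (b.toBasis : Fin k → EuclideanSpace ℝ (Fin k))) := by
    have : (L ∘ (b.toBasis : Fin k → EuclideanSpace ℝ (Fin k))) = b' ∘ Fin.castLE hk := by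
      funext i
      simp [L]
    rw [this]
    exact b'.orthonormal.comp _ (Fin.castLE_injective hk)
  let J := L.isometryOfOrthonormal hb hL
  refine ⟨fun x => J (f x), a, ha, ?_⟩
  intro x y
  rw [J.dist_map]
  refine ⟨(hf x y).1, (hf x y).2.trans ?_⟩
  have : 0 ≤ a * dist x y := mul_nonneg ha.le dist_nonneg
  nlinarith

end Vale.Agent.Lib.P208
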