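import Vale.Agent.Lib.P208.Basic

namespace Vale.Agent.Lib.P208

open Metric Set

/-- Compactness: if every finite subset of `X` embeds into `ℝ^k` with distortion `≤ D`,
so does `X`. -/
theorem embedsWith_of_finite {E : Type*} [PseudoMetricSpace E] {X : Set E} {k : ℕ} {D : ℝ}
    (h : ∀ F : Finset E, (F : Set E) ⊆ X → EmbedsWith (F : Set E) k D) : EmbedsWith X k D := by
  classical
  rcases X.eq_empty_or_nonempty with rfl | ⟨x₀, hx₀⟩
  · exact embedsWith_empty k D
  rw [embedsWith_iff]
  let P : Set (E → EuclideanSpace ℝ (Fin k)) :=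
    Set.univ.pi (fun x => closedBall (0 : EuclideanSpace ℝ (Fin k)) (|D| * dist x x₀))
  have hP : IsCompact P := isCompact_univ_pi (fun x => isCompact_closedBall _ _)
  let t : X × X → Set (E → EuclideanSpace ℝ (Fin k)) := fun p =>
    {g | dist (p.1 : E) p.2 ≤ dist (g p.1) (g p.2) ∧
      dist (g p.1) (g p.2) ≤ D * dist (p.1 : E) p.2}
  have ht : ∀ p, IsClosed (t p) := by
    intro p
    have c1 : Continuous (fun g : E → EuclideanSpace ℝ (Fin k) => dist (g p.1) (g p.2)) :=
      (continuous_apply _).dist (continuous_apply _)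
    exact (isClosed_le continuous_const c1).inter (isClosed_le c1 continuous_const)
  have hne : ∀ u : Finset (X × X), (P ∩ ⋂ i ∈ u, t i).Nonempty := by
    intro u
    let F : Finset E := insert x₀ (u.image (fun p => (p.1 : E)) ∪ u.image (fun p => (p.2 : E)))
    have hF : (F : Set E) ⊆ X := by
      intro x hx
      have hx' : x ∈ F := hx
      simp only [F, Finset.mem_insert, Finset.mem_union, Finset.mem_image] at hx'
      rcases hx' with rfl | ⟨p, -, rfl⟩ | ⟨p, -, rfl⟩
      · exact hx₀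
      · exact p.1.2
      · exact p.2.2
    obtain ⟨f, a, ha, hf⟩ := (embedsWith_iff _ _ _).1 (h F hF)
    have hx₀F : x₀ ∈ (F : Set E) := by simp [F]
    refine ⟨fun x => if x ∈ F then a⁻¹ • (f x - f x₀) else 0, ?_, ?_⟩
    · intro x _
      simp only [mem_closedBall, dist_zero_right]
      by_cases hx : x ∈ F
      · simp only [if_pos hx]
        have h2 := (hf x hx x₀ hx₀F).2
        rw [norm_smul, ← dist_eq_norm, norm_inv, Real.norm_of_nonneg ha.le]
        calc a⁻¹ * dist (f x) (f x₀) ≤ a⁻¹ * (D * a * dist x x₀) := by gcongr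
          _ = D * dist x x₀ := by field_simp
          _ ≤ |D| * dist x x₀ := by gcongr; exact le_abs_self D
      · simp only [if_neg hx, norm_zero]
        positivity
    · simp only [Set.mem_iInter]
      intro p hp
      have h1 : (p.1 : E) ∈ F := by
        simp only [F, Finset.mem_insert, Finset.mem_union, Finset.mem_image]
        exact Or.inr (Or.inl ⟨p, hp, rfl⟩)
      have h2 : (p.2 : E) ∈ F := by
        simp only [F, Finset.mem_insert, Finset.mem_union, Finset.mem_image]
        exact Or.inr (Or.inr ⟨p, hp, rfl⟩)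
      have h3 := hf _ h1 _ h2
      have key : dist (a⁻¹ • (f (p.1 : E) - f x₀)) (a⁻¹ • (f (p.2 : E) - f x₀))
          = a⁻¹ * dist (f (p.1 : E)) (f (p.2 : E)) := by
        rw [dist_eq_norm, ← smul_sub, norm_smul, norm_inv, Real.norm_of_nonneg ha.le,
          sub_sub_sub_cancel_right, ← dist_eq_norm]
      show dist (p.1 : E) p.2 ≤ dist (if (p.1 : E) ∈ F then a⁻¹ • (f (p.1 : E) - f x₀) else 0)
          (if (p.2 : E) ∈ F then a⁻¹ • (f (p.2 : E) - f x₀) else 0) ∧
        dist (if (p.1 : E) ∈ F then a⁻¹ • (f (p.1 : E) - f x₀) else 0)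
          (if (p.2 : E) ∈ F then a⁻¹ • (f (p.2 : E) - f x₀) else 0) ≤ D * dist (p.1 : E) p.2
      rw [if_pos h1, if_pos h2, key]
      constructor
      · calc dist (p.1 : E) p.2 = a⁻¹ * (a * dist (p.1 : E) p.2) := by field_simp
          _ ≤ a⁻¹ * dist (f (p.1 : E)) (f (p.2 : E)) := by gcongr; exact h3.1
      · calc a⁻¹ * dist (f (p.1 : E)) (f (p.2 : E)) ≤ a⁻¹ * (D * a * dist (p.1 : E) p.2) := by
              gcongr; exact h3.2
          _ = D * dist (p.1 : E) p.2 := by field_simp
  obtain ⟨g, -, hg⟩ := hP.inter_iInter_nonempty t ht hne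
  refine ⟨g, 1, one_pos, ?_⟩
  intro x hx y hy
  have h4 := Set.mem_iInter.1 hg (⟨x, hx⟩, ⟨y, hy⟩)
  have h5 : dist x y ≤ dist (g x) (g y) ∧ dist (g x) (g y) ≤ D * dist x y := h4
  simpa using h5

/-- A subset of a set that is doubling with constant `N` is doubling with constant `N * N`. -/
theorem DoublingWith.subset {E : Type*} [PseudoMetricSpace E] {X F : Set E} {N : ℕ}
    (h : DoublingWith X N) (hF : F ⊆ X) : DoublingWith F (N * N) := by
  classical
  intro x hx r hr
  obtain ⟨C, hCX, hCN, hC⟩ := h x (hF hx) r hr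
  have h2 : ∀ c ∈ C, ∃ C' : Finset E, (C' : Set E) ⊆ X ∧ C'.card ≤ N ∧
      X ∩ closedBall c (r / 2) ⊆ ⋃ c' ∈ C', closedBall c' (r / 2 / 2) :=
    fun c hc => h c (hCX hc) (r / 2) (by positivity)
  choose! C' hC'X hC'N hC' using h2
  let U : Finset E := C.biUnion C'
  let p : E → E := fun c' =>
    if hne : (F ∩ closedBall c' (r / 2 / 2)).Nonempty then hne.some else c'
  let W : Finset E := (U.filter (fun c' => (F ∩ closedBall c' (r / 2 / 2)).Nonempty)).image p
  refine ⟨W, ?_, ?_, ?_⟩
  · intro w hw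
    have hw' : w ∈ W := hw
    simp only [W, Finset.mem_image, Finset.mem_filter] at hw'
    obtain ⟨c', ⟨-, hne⟩, rfl⟩ := hw'
    simp only [p, dif_pos hne]
    exact hne.some_mem.1
  · calc W.card ≤ (U.filter (fun c' => (F ∩ closedBall c' (r / 2 / 2)).Nonempty)).card :=
          Finset.card_image_le
      _ ≤ U.card := Finset.card_filter_le _ _
      _ ≤ ∑ c ∈ C, (C' c).card := Finset.card_biUnion_le
      _ ≤ ∑ _c ∈ C, N := Finset.sum_le_sum (fun c hc => hC'N c hc)
      _ = C.card * N := by rw [Finset.sum_const, smul_eq_mul]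
      _ ≤ N * N := Nat.mul_le_mul_right N hCN
  · rintro y ⟨hyF, hyB⟩
    have h3 := hC ⟨hF hyF, hyB⟩
    simp only [Set.mem_iUnion, exists_prop] at h3
    obtain ⟨c, hc, hyc⟩ := h3
    have h4 := hC' c hc ⟨hF hyF, hyc⟩
    simp only [Set.mem_iUnion, exists_prop] at h4
    obtain ⟨c', hc', hyc'⟩ := h4
    have hne : (F ∩ closedBall c' (r / 2 / 2)).Nonempty := ⟨y, hyF, hyc'⟩
    simp only [Set.mem_iUnion, exists_prop]
    refine ⟨p c', ?_, ?_⟩
    · simp only [W, Finset.mem_image, Finset.mem_filter]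
      exact ⟨c', ⟨Finset.mem_biUnion.2 ⟨c, hc, hc'⟩, hne⟩, rfl⟩
    · have h5 : p c' ∈ closedBall c' (r / 2 / 2) := by
        simp only [p, dif_pos hne]
        exact hne.some_mem.2
      rw [mem_closedBall] at hyc' h5 ⊢
      calc dist y (p c') ≤ dist y c' + dist c' (p c') := dist_triangle _ _ _
        _ ≤ r / 2 / 2 + r / 2 / 2 := by rw [dist_comm c' (p c')]; exact add_le_add hyc' h5
        _ = r / 2 := by ring

/-- The image of a doubling set under a similarity is doubling with the same constant. -/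
theorem DoublingWith.image_similar {E E' : Type*} [PseudoMetricSpace E] [PseudoMetricSpace E']
    {X : Set E} {N : ℕ} (h : DoublingWith X N) (φ : E → E') (s : ℝ) (hs : 0 < s)
    (hφ : ∀ x y, dist (φ x) (φ y) = s * dist x y) : DoublingWith (φ '' X) N := by
  classical
  rintro _ ⟨x, hx, rfl⟩ r hr
  obtain ⟨C, hCX, hCN, hC⟩ := h x hx (r / s) (div_pos hr hs)
  refine ⟨C.image φ, ?_, Finset.card_image_le.trans hCN, ?_⟩
  · intro w hw
    have hw' : w ∈ C.image φ := hw
    obtain ⟨c, hc, rfl⟩ := Finset.mem_image.1 hw'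
    exact ⟨c, hCX hc, rfl⟩
  · rintro _ ⟨⟨y, hy, rfl⟩, hyB⟩
    rw [mem_closedBall, hφ] at hyB
    have h1 : y ∈ X ∩ closedBall x (r / s) := by
      refine ⟨hy, ?_⟩
      rw [mem_closedBall, le_div_iff₀ hs]
      linarith
    have h2 := hC h1
    simp only [Set.mem_iUnion, exists_prop] at h2
    obtain ⟨c, hc, hyc⟩ := h2
    simp only [Set.mem_iUnion, exists_prop]
    refine ⟨φ c, Finset.mem_image_of_mem φ hc, ?_⟩
    rw [mem_closedBall] at hyc ⊢
    rw [hφ]
    calc s * dist y c ≤ s * (r / s / 2) := by gcongr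
      _ = r / 2 := by field_simp

end Vale.Agent.Lib.P208
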