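import Mathlib

/-!
# Lang-Plaut problem: basic definitions

Doubling subsets of a metric space (closed-ball convention) and bi-Lipschitz
embeddings into Euclidean spaces `ℝ^k`.
-/

namespace Vale.Agent.Lib.P208

open Metric Set

/-- `X` is doubling with constant at most `N`: every closed ball of `X` (centre in `X`,
radius `r > 0`) is covered by at most `N` closed balls of radius `r / 2` with centres in `X`. -/
def DoublingWith {E : Type*} [PseudoMetricSpace E] (X : Set E) (N : ℕ) : Prop :=
  ∀ x ∈ X, ∀ r : ℝ, 0 < r → ∃ C : Finset E, (C : Set E) ⊆ X ∧ C.card ≤ N ∧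
    X ∩ closedBall x r ⊆ ⋃ c ∈ C, closedBall c (r / 2)

/-- `X` is doubling: it is doubling with some finite constant. -/
def Doubling {E : Type*} [PseudoMetricSpace E] (X : Set E) : Prop :=
  ∃ N : ℕ, DoublingWith X N

/-- `X` admits a bi-Lipschitz embedding into `ℝ^k` (Euclidean norm) with distortion at most `D`:
there are a map `f : X → ℝ^k` and a scale `a > 0` with
`a * d(x,y) ≤ ‖f x - f y‖ ≤ D * a * d(x,y)` for all `x, y ∈ X`. -/
def EmbedsWith {E : Type*} [PseudoMetricSpace E] (X : Set E) (k : ℕ) (D : ℝ) : Prop :=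
  ∃ (f : X → EuclideanSpace ℝ (Fin k)) (a : ℝ), 0 < a ∧
    ∀ x y : X, a * dist x y ≤ dist (f x) (f y) ∧ dist (f x) (f y) ≤ D * a * dist x y

/-- Real separable Hilbert space `ℓ₂`: square-summable real sequences with the `ℓ₂` norm. -/
abbrev L2 : Type := lp (fun _ : ℕ => ℝ) 2

/-- The Lang-Plaut statement: every doubling subset of `ℓ₂` admits a bi-Lipschitz embedding
into `ℝ^k` for some finite `k` and some finite distortion `D`. -/
def LangPlaut : Prop :=
  ∀ X : Set L2, Doubling X → ∃ (k : ℕ) (D : ℝ), EmbedsWith X k D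

/-- The uniform form: `k` and `D` depend only on the doubling constant. -/
def LangPlautUniform : Prop :=
  ∀ N : ℕ, ∃ (k : ℕ) (D : ℝ), ∀ X : Set L2, DoublingWith X N → EmbedsWith X k D

/-- The uniform form for finite subsets of `ℓ₂` only. -/
def LangPlautFiniteUniform : Prop :=
  ∀ N : ℕ, ∃ (k : ℕ) (D : ℝ), ∀ X : Set L2, X.Finite → DoublingWith X N → EmbedsWith X k D

/-- The Lang-Plaut statement restricted to compact countable subsets of `ℓ₂`. -/
def LangPlautCompactCountable : Prop :=
  ∀ X : Set L2, IsCompact X → X.Countable → Doubling X → ∃ (k : ℕ) (D : ℝ), EmbedsWith X k D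

end Vale.Agent.Lib.P208
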