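import Vale.Agent.Lib.P208.Compactness

namespace Vale.Agent.Lib.P208

open Metric Set

section Glue

variable {E : Type*} [NormedAddCommGroup E] [NormedSpace ℝ E]

/-- Scale of the `n`-th piece of the gluing construction. -/
noncomputable def tau (n : ℕ) : ℝ := (1 / 8 : ℝ) ^ n

theorem tau_pos (n : ℕ) : 0 < tau n := by unfold tau; positivity

theorem tau_succ (n : ℕ) : tau (n + 1) = tau n / 8 := by unfold tau; rw [pow_succ]; ring

theorem tau_anti {n m : ℕ} (h : n ≤ m) : tau m ≤ tau n := by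
  unfold tau; exact pow_le_pow_of_le_one (by norm_num) (by norm_num) h

theorem tau_lt {n m : ℕ} (h : n < m) : tau m ≤ tau n / 8 := by
  rw [← tau_succ]; exact tau_anti h

/-- The similarity placing the `n`-th piece. -/
noncomputable def glueMap (e : E) (p : ℕ → E) (s : ℕ → ℝ) (n : ℕ) (y : E) : E :=
  tau n • e + s n • (y - p n)

/-- The `n`-th piece. -/
def gluePiece (e : E) (F : ℕ → Set E) (p : ℕ → E) (s : ℕ → ℝ) (n : ℕ) : Set E :=
  glueMap e p s n '' F n

/-- The glued set. -/
def glueSet (e : E) (F : ℕ → Set E) (p : ℕ → E) (s : ℕ → ℝ) : Set E :=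
  insert 0 (⋃ n, gluePiece e F p s n)

theorem glueMap_dist (e : E) (p : ℕ → E) (s : ℕ → ℝ) (hs : ∀ n, 0 < s n) (n : ℕ) (y y' : E) :
    dist (glueMap e p s n y) (glueMap e p s n y') = s n * dist y y' := by
  unfold glueMap
  rw [dist_add_left, dist_eq_norm, ← smul_sub, norm_smul, Real.norm_of_nonneg (hs n).le,
    sub_sub_sub_cancel_right, dist_eq_norm]

theorem center_mem (e : E) (F : ℕ → Set E) (p : ℕ → E) (s : ℕ → ℝ) (hp : ∀ n, p n ∈ F n)
    (n : ℕ) : tau n • e ∈ gluePiece e F p s n := by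
  refine ⟨p n, hp n, ?_⟩
  simp [glueMap]

theorem dist_center (e : E) (F : ℕ → Set E) (p : ℕ → E) (s : ℕ → ℝ) (hs : ∀ n, 0 < s n)
    (hR : ∀ n, ∀ y ∈ F n, s n * ‖y - p n‖ ≤ tau n / 16) {n : ℕ} {x : E}
    (hx : x ∈ gluePiece e F p s n) : dist x (tau n • e) ≤ tau n / 16 := by
  obtain ⟨y, hy, rfl⟩ := hx
  unfold glueMap
  rw [dist_eq_norm, add_sub_cancel_left, norm_smul, Real.norm_of_nonneg (hs n).le]
  exact hR n y hy

theorem dist_centers (e : E) (he : ‖e‖ = 1) (n m : ℕ) :
    dist (tau n • e) (tau m • e) = |tau n - tau m| := by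
  rw [dist_eq_norm, ← sub_smul, norm_smul, he, mul_one, Real.norm_eq_abs]

theorem norm_center (e : E) (he : ‖e‖ = 1) (n : ℕ) : ‖tau n • e‖ = tau n := by
  rw [norm_smul, he, mul_one, Real.norm_of_nonneg (tau_pos n).le]

theorem piece_sep (e : E) (he : ‖e‖ = 1) (F : ℕ → Set E) (p : ℕ → E) (s : ℕ → ℝ)
    (hs : ∀ n, 0 < s n) (hR : ∀ n, ∀ y ∈ F n, s n * ‖y - p n‖ ≤ tau n / 16) {n m : ℕ}
    (hnm : n < m) {x y : E} (hx : x ∈ gluePiece e F p s n) (hy : y ∈ gluePiece e F p s m) :
    3 / 4 * tau n ≤ dist x y := by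
  have h1 := dist_center e F p s hs hR hx
  have h2 := dist_center e F p s hs hR hy
  have h3 := dist_centers e he n m
  have h4 := tau_lt hnm
  have h5 := tau_pos m
  have h6 : dist (tau n • e) (tau m • e) ≤ dist (tau n • e) x + dist x y + dist y (tau m • e) :=
    dist_triangle4 _ _ _ _
  rw [dist_comm (tau n • e) x] at h6
  have h7 : tau n - tau m ≤ |tau n - tau m| := le_abs_self _
  linarith

theorem piece_norm_lower (e : E) (he : ‖e‖ = 1) (F : ℕ → Set E) (p : ℕ → E) (s : ℕ → ℝ)
    (hs : ∀ n, 0 < s n) (hR : ∀ n, ∀ y ∈ F n, s n * ‖y - p n‖ ≤ tau n / 16) {n : ℕ}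
    {x : E} (hx : x ∈ gluePiece e F p s n) : 15 / 16 * tau n ≤ ‖x‖ := by
  have h1 := dist_center e F p s hs hR hx
  have h2 := norm_center e he n
  have h3 : dist (tau n • e) 0 ≤ dist (tau n • e) x + dist x 0 := dist_triangle _ _ _
  rw [dist_zero_right, dist_zero_right, dist_comm, h2] at h3
  linarith

theorem piece_norm_upper (e : E) (he : ‖e‖ = 1) (F : ℕ → Set E) (p : ℕ → E) (s : ℕ → ℝ)
    (hs : ∀ n, 0 < s n) (hR : ∀ n, ∀ y ∈ F n, s n * ‖y - p n‖ ≤ tau n / 16) {n : ℕ}
    {x : E} (hx : x ∈ gluePiece e F p s n) : ‖x‖ ≤ 17 / 16 * tau n := by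
  have h1 := dist_center e F p s hs hR hx
  have h2 := norm_center e he n
  have h3 : dist x 0 ≤ dist x (tau n • e) + dist (tau n • e) 0 := dist_triangle _ _ _
  rw [dist_zero_right, dist_zero_right, h2] at h3
  linarith

theorem piece_far (e : E) (he : ‖e‖ = 1) (F : ℕ → Set E) (p : ℕ → E) (s : ℕ → ℝ)
    (hs : ∀ n, 0 < s n) (hR : ∀ n, ∀ y ∈ F n, s n * ‖y - p n‖ ≤ tau n / 16) {m₀ m : ℕ}
    (hm : m₀ < m) {y : E} (hy : y ∈ gluePiece e F p s m) :
    dist y (tau (m₀ + 1) • e) ≤ tau (m₀ + 1) := by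
  have h1 := dist_center e F p s hs hR hy
  have h2 := dist_centers e he m (m₀ + 1)
  have h3 : tau m ≤ tau (m₀ + 1) := tau_anti hm
  have h4 : dist y (tau (m₀ + 1) • e) ≤ dist y (tau m • e) + dist (tau m • e) (tau (m₀ + 1) • e) :=
    dist_triangle _ _ _
  have h5 : |tau m - tau (m₀ + 1)| = tau (m₀ + 1) - tau m := by
    rw [abs_sub_comm]; exact abs_of_nonneg (by linarith)
  have h6 := tau_pos m
  linarith

theorem piece_same (e : E) (F : ℕ → Set E) (p : ℕ → E) (s : ℕ → ℝ)
    (hs : ∀ n, 0 < s n) (hR : ∀ n, ∀ y ∈ F n, s n * ‖y - p n‖ ≤ tau n / 16) {m : ℕ}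
    {y z : E} (hy : y ∈ gluePiece e F p s m) (hz : z ∈ gluePiece e F p s m) :
    dist y z ≤ tau m / 8 := by
  have h1 := dist_center e F p s hs hR hy
  have h2 := dist_center e F p s hs hR hz
  have h3 : dist y z ≤ dist y (tau m • e) + dist (tau m • e) z := dist_triangle _ _ _
  rw [dist_comm (tau m • e) z] at h3
  linarith

/-- Large balls of the glued set are covered by two half-radius balls. -/
theorem glue_cover2 (e : E) (he : ‖e‖ = 1) (F : ℕ → Set E) (p : ℕ → E) (s : ℕ → ℝ)
    (hs : ∀ n, 0 < s n) (hR : ∀ n, ∀ y ∈ F n, s n * ‖y - p n‖ ≤ tau n / 16)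
    (x : E) (r : ℝ) (m₀ : ℕ) (z : E)
    (hmin : ∀ m, (gluePiece e F p s m ∩ closedBall x r).Nonempty → m₀ ≤ m)
    (hz : z ∈ gluePiece e F p s m₀) (hr : tau m₀ / 2 ≤ r) :
    glueSet e F p s ∩ closedBall x r ⊆
      closedBall z (r / 2) ∪ closedBall (tau (m₀ + 1) • e) (r / 2) := by
  rintro y ⟨hyY, hyB⟩
  have ht := tau_succ m₀
  have htp := tau_pos m₀
  rcases hyY with rfl | hyY
  · right
    rw [mem_closedBall, dist_zero_left, norm_center e he, ht]
    linarith
  · obtain ⟨m, hym⟩ := Set.mem_iUnion.1 hyY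
    have hm : m₀ ≤ m := hmin m ⟨y, hym, hyB⟩
    rcases hm.eq_or_lt with rfl | hlt
    · left
      rw [mem_closedBall]
      have := piece_same e F p s hs hR hym hz
      linarith
    · right
      rw [mem_closedBall]
      have := piece_far e he F p s hs hR hlt hym
      linarith

theorem glueSet_doubling (e : E) (he : ‖e‖ = 1) (F : ℕ → Set E) (p : ℕ → E) (s : ℕ → ℝ)
    (hs : ∀ n, 0 < s n) (hp : ∀ n, p n ∈ F n)
    (hR : ∀ n, ∀ y ∈ F n, s n * ‖y - p n‖ ≤ tau n / 16) (N : ℕ)
    (hF : ∀ n, DoublingWith (F n) N) : DoublingWith (glueSet e F p s) (max N 2) := by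
  classical
  have hpieceY : ∀ n, gluePiece e F p s n ⊆ glueSet e F p s := fun n y hy =>
    Or.inr (Set.mem_iUnion.2 ⟨n, hy⟩)
  -- the common covering step for large radii
  have big : ∀ (x : E) (r : ℝ) (m₀ : ℕ) (z : E),
      (∀ m, (gluePiece e F p s m ∩ closedBall x r).Nonempty → m₀ ≤ m) →
      z ∈ gluePiece e F p s m₀ → tau m₀ / 2 ≤ r →
      ∃ C : Finset E, (C : Set E) ⊆ glueSet e F p s ∧ C.card ≤ max N 2 ∧
        glueSet e F p s ∩ closedBall x r ⊆ ⋃ c ∈ C, closedBall c (r / 2) := by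
    intro x r m₀ z hmin hz hr
    refine ⟨{z, tau (m₀ + 1) • e}, ?_, ?_, ?_⟩
    · intro w hw
      have hw' : w ∈ ({z, tau (m₀ + 1) • e} : Finset E) := hw
      rcases Finset.mem_insert.1 hw' with rfl | hw''
      · exact hpieceY m₀ hz
      · rw [Finset.mem_singleton] at hw''
        rw [hw'']
        exact hpieceY (m₀ + 1) (center_mem e F p s hp (m₀ + 1))
    · exact (Finset.card_le_two).trans (le_max_right N 2)
    · intro y hy
      have := glue_cover2 e he F p s hs hR x r m₀ z hmin hz hr hy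
      simp only [Set.mem_iUnion, exists_prop]
      rcases this with h | h
      · exact ⟨z, by simp, h⟩
      · exact ⟨tau (m₀ + 1) • e, by simp, h⟩
  intro x hx r hr
  rcases hx with rfl | hx
  · -- centre 0
    by_cases hex : ∃ m, (gluePiece e F p s m ∩ closedBall (0 : E) r).Nonempty
    · obtain ⟨z, hz, hzB⟩ := Nat.find_spec hex
      refine big 0 r (Nat.find hex) z (fun m hm => Nat.find_min' hex hm) hz ?_
      have h1 := piece_norm_lower e he F p s hs hR hz
      rw [mem_closedBall, dist_zero_right] at hzB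
      have := tau_pos (Nat.find hex)
      linarith
    · refine ⟨{0}, ?_, ?_, ?_⟩
      · intro w hw
        have hw' : w ∈ ({0} : Finset E) := hw
        rw [Finset.mem_singleton] at hw'
        rw [hw']
        exact Or.inl rfl
      · simp
      · rintro y ⟨hyY, hyB⟩
        rcases hyY with rfl | hyY
        · simp only [Set.mem_iUnion, exists_prop]
          exact ⟨0, by simp, by rw [mem_closedBall, dist_self]; linarith⟩
        · obtain ⟨m, hym⟩ := Set.mem_iUnion.1 hyY
          exact absurd ⟨m, y, hym, hyB⟩ hex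
  · obtain ⟨n, hxn⟩ := Set.mem_iUnion.1 hx
    by_cases hr2 : r < tau n / 2
    · -- small radius: only the piece `n` is seen
      have hsub : glueSet e F p s ∩ closedBall x r ⊆ gluePiece e F p s n ∩ closedBall x r := by
        rintro y ⟨hyY, hyB⟩
        refine ⟨?_, hyB⟩
        rw [mem_closedBall] at hyB
        have htn := tau_pos n
        rcases hyY with rfl | hyY
        · exfalso
          have h1 := piece_norm_lower e he F p s hs hR hxn
          rw [dist_zero_left] at hyB
          linarith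
        · obtain ⟨m, hym⟩ := Set.mem_iUnion.1 hyY
          rcases lt_trichotomy m n with hlt | heq | hgt
          · exfalso
            have h1 := piece_sep e he F p s hs hR hlt hym hxn
            have h2 := tau_anti hlt.le
            linarith
          · rw [← heq]; exact hym
          · exfalso
            have h1 := piece_sep e he F p s hs hR hgt hxn hym
            rw [dist_comm] at hyB
            linarith
      have hdn : DoublingWith (gluePiece e F p s n) N :=
        (hF n).image_similar (glueMap e p s n) (s n) (hs n) (glueMap_dist e p s hs n)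
      obtain ⟨C, hCX, hCN, hC⟩ := hdn x hxn r hr
      exact ⟨C, hCX.trans (hpieceY n), hCN.trans (le_max_left N 2), hsub.trans hC⟩
    · -- large radius
      have hex : ∃ m, (gluePiece e F p s m ∩ closedBall x r).Nonempty :=
        ⟨n, x, hxn, mem_closedBall_self hr.le⟩
      obtain ⟨z, hz, hzB⟩ := Nat.find_spec hex
      refine big x r (Nat.find hex) z (fun m hm => Nat.find_min' hex hm) hz ?_
      have hle : Nat.find hex ≤ n := Nat.find_min' hex ⟨x, hxn, mem_closedBall_self hr.le⟩
      rcases hle.eq_or_lt with heq | hlt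
      · rw [heq]; linarith
      · have h1 := piece_sep e he F p s hs hR hlt hz hxn
        rw [mem_closedBall] at hzB
        have := tau_pos (Nat.find hex)
        linarith

theorem glueSet_countable (e : E) (F : ℕ → Set E) (p : ℕ → E) (s : ℕ → ℝ)
    (hfin : ∀ n, (F n).Finite) : (glueSet e F p s).Countable := by
  refine Set.Countable.insert 0 (Set.countable_iUnion (fun n => ?_))
  exact ((hfin n).image _).countable

theorem glueSet_compact (e : E) (he : ‖e‖ = 1) (F : ℕ → Set E) (p : ℕ → E) (s : ℕ → ℝ)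
    (hs : ∀ n, 0 < s n) (hR : ∀ n, ∀ y ∈ F n, s n * ‖y - p n‖ ≤ tau n / 16)
    (hfin : ∀ n, (F n).Finite) : IsCompact (glueSet e F p s) := by
  have key : Filter.Tendsto (fun y : (⋃ n, gluePiece e F p s n : Set E) => (y : E))
      Filter.cofinite (nhds 0) := by
    rw [Metric.tendsto_nhds]
    intro ε hε
    rw [Filter.eventually_cofinite]
    obtain ⟨n₀, hn₀⟩ : ∃ n₀ : ℕ, (1 / 8 : ℝ) ^ n₀ < ε * (16 / 17) :=
      exists_pow_lt_of_lt_one (by positivity) (by norm_num)
    have hfinU : (⋃ n ∈ Finset.range n₀, gluePiece e F p s n).Finite :=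
      Set.Finite.biUnion (Finset.finite_toSet _) (fun n _ => (hfin n).image _)
    refine Set.Finite.subset (hfinU.preimage Subtype.val_injective.injOn) ?_
    rintro ⟨y, hy⟩ hyε
    simp only [Set.mem_ofPred_eq, dist_zero_right, not_lt] at hyε
    obtain ⟨m, hym⟩ := Set.mem_iUnion.1 hy
    have h1 := piece_norm_upper e he F p s hs hR hym
    have hm : m < n₀ := by
      by_contra hcon
      have h2 : tau m ≤ tau n₀ := tau_anti (not_lt.1 hcon)
      have h3 : tau n₀ < ε * (16 / 17) := hn₀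
      linarith
    simp only [Set.mem_preimage, Set.mem_iUnion, Finset.mem_range, exists_prop]
    exact ⟨m, hm, hym⟩
  have := key.isCompact_insert_range_of_cofinite
  rwa [Subtype.range_coe] at this

/-- Gluing: countably many finite sets, all doubling with constant `N`, have similar copies
inside one compact countable set that is doubling with constant `max N 2`. -/
theorem exists_glue (e : E) (he : ‖e‖ = 1) (N : ℕ) (F : ℕ → Set E)
    (hfin : ∀ n, (F n).Finite) (hne : ∀ n, (F n).Nonempty) (hF : ∀ n, DoublingWith (F n) N) :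
    ∃ Y : Set E, IsCompact Y ∧ Y.Countable ∧ DoublingWith Y (max N 2) ∧
      ∀ n, ∃ (φ : E → E) (s : ℝ), 0 < s ∧ (∀ x y, dist (φ x) (φ y) = s * dist x y) ∧
        ∀ x ∈ F n, φ x ∈ Y := by
  choose p hp using hne
  have hb : ∀ n, ∃ R : ℝ, 0 < R ∧ ∀ y ∈ F n, ‖y - p n‖ ≤ R := by
    intro n
    obtain ⟨R, hR⟩ := (isBounded_iff_subset_closedBall (p n)).1 (hfin n).isBounded
    refine ⟨max R 1, lt_max_of_lt_right one_pos, fun y hy => ?_⟩
    have := hR hy
    rw [mem_closedBall, dist_eq_norm] at this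
    exact this.trans (le_max_left R 1)
  choose R hRpos hR using hb
  let s : ℕ → ℝ := fun n => tau n / (16 * R n)
  have hs : ∀ n, 0 < s n := fun n => div_pos (tau_pos n) (by have := hRpos n; positivity)
  have hR' : ∀ n, ∀ y ∈ F n, s n * ‖y - p n‖ ≤ tau n / 16 := by
    intro n y hy
    have h1 := hR n y hy
    have h2 := hRpos n
    have h3 := tau_pos n
    calc s n * ‖y - p n‖ ≤ s n * R n := by gcongr
      _ = tau n / 16 := by simp only [s]; field_simp
  refine ⟨glueSet e F p s, glueSet_compact e he F p s hs hR' hfin, glueSet_countable e F p s hfin,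
    glueSet_doubling e he F p s hs hp hR' N hF, fun n => ?_⟩
  refine ⟨glueMap e p s n, s n, hs n, glueMap_dist e p s hs n, fun x hx => ?_⟩
  exact Or.inr (Set.mem_iUnion.2 ⟨n, x, hx, rfl⟩)

end Glue

end Vale.Agent.Lib.P208
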