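import Vale.Agent.Lib.P208.Main

namespace Vale.Agent.Lib.P208

open Metric Set

section GlueAffine

variable {E : Type*} [NormedAddCommGroup E] [NormedSpace ℝ E]

/-- Gluing, affine form: the similar copies are of the form `x ↦ c + s • x`. -/
theorem exists_glue_affine (e : E) (he : ‖e‖ = 1) (N : ℕ) (F : ℕ → Set E)
    (hfin : ∀ n, (F n).Finite) (hne : ∀ n, (F n).Nonempty) (hF : ∀ n, DoublingWith (F n) N) :
    ∃ Y : Set E, IsCompact Y ∧ Y.Countable ∧ DoublingWith Y (max N 2) ∧
      ∀ n, ∃ (c : E) (s : ℝ), 0 < s ∧ ∀ x ∈ F n, c + s • x ∈ Y := by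
  choose p hp using hne
  have hb : ∀ n, ∃ R : ℝ, 0 < R ∧ ∀ y ∈ F n, ‖y - p n‖ ≤ R := by
    intro n
    obtain ⟨R, hR⟩ := (isBounded_iff_subset_closedBall (p n)).1 (hfin n).isBounded
    refine ⟨max R 1, lt_max_of_lt_right one_pos, fun y hy => ?_⟩
    have := hR hy
    rw [mem_closedBall, dist_eq_norm] at this
    exact this.trans (le_max_left R 1)
  choose R hRpos hR using hb
  let s : ℕ → ℝ := fun n => tau n / (16 * R n)
  have hs : ∀ n, 0 < s n := fun n => div_pos (tau_pos n) (by have := hRpos n; positivity)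
  have hR' : ∀ n, ∀ y ∈ F n, s n * ‖y - p n‖ ≤ tau n / 16 := by
    intro n y hy
    have h1 := hR n y hy
    have h2 := hRpos n
    have h3 := tau_pos n
    calc s n * ‖y - p n‖ ≤ s n * R n := by gcongr
      _ = tau n / 16 := by simp only [s]; field_simp
  refine ⟨glueSet e F p s, glueSet_compact e he F p s hs hR' hfin, glueSet_countable e F p s hfin,
    glueSet_doubling e he F p s hs hp hR' N hF, fun n => ?_⟩
  refine ⟨tau n • e - s n • p n, s n, hs n, fun x hx => ?_⟩
  refine Or.inr (Set.mem_iUnion.2 ⟨n, x, hx, ?_⟩)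
  simp only [glueMap, smul_sub]
  abel

end GlueAffine

/-- Any finite set is doubling with constant its cardinality. -/
theorem doublingWith_finset {E : Type*} [PseudoMetricSpace E] (S : Finset E) :
    DoublingWith (S : Set E) S.card := by
  intro x _ r hr
  refine ⟨S, subset_rfl, le_rfl, ?_⟩
  rintro y ⟨hy, -⟩
  simp only [Set.mem_iUnion, exists_prop]
  exact ⟨y, hy, by rw [mem_closedBall, dist_self]; linarith⟩

theorem DoublingWith.mono_const {E : Type*} [PseudoMetricSpace E] {X : Set E} {N N' : ℕ}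
    (h : DoublingWith X N) (hN : N ≤ N') : DoublingWith X N' := by
  intro x hx r hr
  obtain ⟨C, h1, h2, h3⟩ := h x hx r hr
  exact ⟨C, h1, h2.trans hN, h3⟩

/-- The standard unit vectors of `ℓ₂`. -/
noncomputable def unitVec (i : ℕ) : L2 := lp.single 2 i (1 : ℝ)

theorem norm_unitVec (i : ℕ) : ‖unitVec i‖ = 1 := by
  unfold unitVec
  rw [lp.norm_single (by norm_num)]
  simp

theorem one_le_dist_unitVec {i j : ℕ} (hij : i ≠ j) : 1 ≤ dist (unitVec i) (unitVec j) := by
  rw [dist_eq_norm]
  have h := lp.norm_apply_le_norm (p := 2) (by norm_num) (unitVec i - unitVec j) i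
  have h2 : (unitVec i - unitVec j) i = 1 := by
    unfold unitVec
    rw [lp.coeFn_sub, Pi.sub_apply, lp.single_apply_self, lp.single_apply_ne _ _ _ hij]
    simp
  rw [h2] at h
  simpa using h

theorem dist_unitVec_le (i j : ℕ) : dist (unitVec i) (unitVec j) ≤ 2 := by
  rw [dist_eq_norm]
  calc ‖unitVec i - unitVec j‖ ≤ ‖unitVec i‖ + ‖unitVec j‖ := norm_sub_le _ _
    _ = 2 := by rw [norm_unitVec, norm_unitVec]; norm_num

/-- No linear map into a finite-dimensional Euclidean space is bi-Lipschitz on a suitable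
compact countable subset of `ℓ₂` with doubling constant `2`. -/
theorem exists_no_linear : ∃ X : Set L2, IsCompact X ∧ X.Countable ∧ DoublingWith X 2 ∧
    ∀ (k : ℕ) (T : L2 →ₗ[ℝ] EuclideanSpace ℝ (Fin k)) (a D : ℝ), 0 < a →
      ¬ ∀ x ∈ X, ∀ y ∈ X,
        a * dist x y ≤ dist (T x) (T y) ∧ dist (T x) (T y) ≤ D * a * dist x y := by
  classical
  let F : ℕ → Set L2 := fun n =>
    ((({unitVec (Nat.unpair n).1, unitVec (Nat.unpair n).2} : Finset L2)) : Set L2)
  have hFd : ∀ n, DoublingWith (F n) 2 := fun n =>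
    (doublingWith_finset _).mono_const Finset.card_le_two
  have hFfin : ∀ n, (F n).Finite := fun n => Finset.finite_toSet _
  have hFne : ∀ n, (F n).Nonempty := fun n => ⟨unitVec (Nat.unpair n).1, by simp [F]⟩
  obtain ⟨Y, hYc, hYct, hYd, hY⟩ :=
    exists_glue_affine (unitVec 0) (norm_unitVec 0) 2 F hFfin hFne hFd
  refine ⟨Y, hYc, hYct, hYd, ?_⟩
  intro k T a D ha hT
  -- the images of the unit vectors are separated and bounded
  have key : ∀ i j : ℕ, a * dist (unitVec i) (unitVec j) ≤ dist (T (unitVec i)) (T (unitVec j)) ∧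
      dist (T (unitVec i)) (T (unitVec j)) ≤ D * a * dist (unitVec i) (unitVec j) := by
    intro i j
    obtain ⟨c, s, hs, hcs⟩ := hY (Nat.pair i j)
    have hi : unitVec i ∈ F (Nat.pair i j) := by simp [F]
    have hj : unitVec j ∈ F (Nat.pair i j) := by simp [F]
    have h := hT _ (hcs _ hi) _ (hcs _ hj)
    have e1 : dist (c + s • unitVec i) (c + s • unitVec j) = s * dist (unitVec i) (unitVec j) := by
      rw [dist_add_left, dist_eq_norm, ← smul_sub, norm_smul, Real.norm_of_nonneg hs.le,
        dist_eq_norm]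
    have e2 : dist (T (c + s • unitVec i)) (T (c + s • unitVec j)) =
        s * dist (T (unitVec i)) (T (unitVec j)) := by
      rw [map_add, map_add, map_smul, map_smul, dist_add_left, dist_eq_norm, ← smul_sub,
        norm_smul, Real.norm_of_nonneg hs.le, dist_eq_norm]
    rw [e1, e2] at h
    constructor
    · have h1 := h.1
      have h3 : s * (a * dist (unitVec i) (unitVec j)) ≤
          s * dist (T (unitVec i)) (T (unitVec j)) := by linarith
      exact le_of_mul_le_mul_left h3 hs
    · have h2 := h.2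
      have h3 : s * dist (T (unitVec i)) (T (unitVec j)) ≤
          s * (D * a * dist (unitVec i) (unitVec j)) := by linarith
      exact le_of_mul_le_mul_left h3 hs
  have hsep : ∀ i j : ℕ, i ≠ j → a ≤ dist (T (unitVec i)) (T (unitVec j)) := by
    intro i j hij
    have h1 := (key i j).1
    have h2 := one_le_dist_unitVec hij
    nlinarith
  have hbdd : ∀ i : ℕ, T (unitVec i) ∈ closedBall (T (unitVec 0)) (|D| * a * 2) := by
    intro i
    rw [mem_closedBall]
    have h1 := (key i 0).2
    have h2 := dist_unitVec_le i 0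
    have h3 : D * a * dist (unitVec i) (unitVec 0) ≤ |D| * a * dist (unitVec i) (unitVec 0) := by
      have : D ≤ |D| := le_abs_self D
      have h4 : 0 ≤ a * dist (unitVec i) (unitVec 0) := mul_nonneg ha.le dist_nonneg
      nlinarith
    have h5 : |D| * a * dist (unitVec i) (unitVec 0) ≤ |D| * a * 2 := by
      have : 0 ≤ |D| * a := mul_nonneg (abs_nonneg D) ha.le
      nlinarith
    linarith
  obtain ⟨l, -, φ, hφ, hlim⟩ := tendsto_subseq_of_bounded isBounded_closedBall hbdd
  have hcau := hlim.cauchySeq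
  rw [Metric.cauchySeq_iff] at hcau
  obtain ⟨N, hN⟩ := hcau a ha
  have h1 := hN N le_rfl (N + 1) (Nat.le_succ N)
  have h2 := hsep (φ N) (φ (N + 1)) (hφ (Nat.lt_succ_self N)).ne
  simp only [Function.comp] at h1
  linarith

end Vale.Agent.Lib.P208
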