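import Vale.Agent.Lib.P208.Glue

namespace Vale.Agent.Lib.P208

open Metric Set

section Reduction

variable {E : Type*} [NormedAddCommGroup E] [NormedSpace ℝ E]

/-- If all compact countable doubling subsets embed, then finite subsets embed uniformly. -/
theorem compact_to_finite (e : E) (he : ‖e‖ = 1)
    (hC : ∀ X : Set E, IsCompact X → X.Countable → Doubling X →
      ∃ (k : ℕ) (D : ℝ), EmbedsWith X k D) :
    ∀ N : ℕ, ∃ (k : ℕ) (D : ℝ), ∀ X : Set E, X.Finite → DoublingWith X N →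
      EmbedsWith X k D := by
  intro N
  by_contra hcon
  push Not at hcon
  choose F hFfin hFd hFn using fun n : ℕ => hcon n (n : ℝ)
  have hne : ∀ n, (F n).Nonempty := by
    intro n
    by_contra h
    rw [Set.not_nonempty_iff_eq_empty] at h
    apply hFn n
    rw [h]
    exact embedsWith_empty n n
  obtain ⟨Y, hYc, hYct, hYd, hY⟩ := exists_glue e he N F hFfin hne hFd
  obtain ⟨k, D, hkD⟩ := hC Y hYc hYct ⟨_, hYd⟩
  obtain ⟨φ, s, hs, hφ, hφY⟩ := hY (max k ⌈D⌉₊)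
  have h1 : EmbedsWith (F (max k ⌈D⌉₊)) k D := EmbedsWith.of_similar φ s hs hφ hφY hkD
  refine hFn (max k ⌈D⌉₊) (h1.mono (le_max_left _ _) ?_)
  calc D ≤ (⌈D⌉₊ : ℝ) := Nat.le_ceil D
    _ ≤ ((max k ⌈D⌉₊ : ℕ) : ℝ) := by exact_mod_cast le_max_right k ⌈D⌉₊

end Reduction

/-- If finite subsets embed uniformly, then all subsets embed uniformly. -/
theorem finite_to_uniform {E : Type*} [PseudoMetricSpace E]
    (hF : ∀ N : ℕ, ∃ (k : ℕ) (D : ℝ), ∀ X : Set E, X.Finite → DoublingWith X N →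
      EmbedsWith X k D) :
    ∀ N : ℕ, ∃ (k : ℕ) (D : ℝ), ∀ X : Set E, DoublingWith X N → EmbedsWith X k D := by
  intro N
  obtain ⟨k, D, h⟩ := hF (N * N)
  exact ⟨k, D, fun X hX => embedsWith_of_finite
    (fun F' hF' => h _ (Finset.finite_toSet F') (hX.subset hF'))⟩

theorem uniform_to_all {E : Type*} [PseudoMetricSpace E]
    (hU : ∀ N : ℕ, ∃ (k : ℕ) (D : ℝ), ∀ X : Set E, DoublingWith X N → EmbedsWith X k D) :
    ∀ X : Set E, Doubling X → ∃ (k : ℕ) (D : ℝ), EmbedsWith X k D := by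
  rintro X ⟨N, hN⟩
  obtain ⟨k, D, h⟩ := hU N
  exact ⟨k, D, h X hN⟩

/-- A unit vector of `ℓ₂`. -/
theorem exists_unit_l2 : ∃ e : lp (fun _ : ℕ => ℝ) 2, ‖e‖ = 1 :=
  ⟨lp.single 2 0 (1 : ℝ), by rw [lp.norm_single (by norm_num)]; simp⟩

end Vale.Agent.Lib.P208
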